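import Vale.Agent.P315.DP

/-!
# The exact cell query as a program

`strip`: all end points of a strip of time length `T` (time = sum of the two positions) from one
start point.
-/

set_option autoImplicit false

namespace Vale.Agent.P315.H47

open Vale.Agent.P315

/-- Exact distance from the start point `(px, py)` to the point of the antidiagonal at time
distance `T` whose first coordinate is `px + i`; clipped to the lengths `lx`, `ly`. -/
def ev (X Y : ℕ → ℕ) (px lx py ly T i : ℕ) : ℕ := dist X Y px (min i lx) py (min (T - i) ly)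

theorem ev_le (X Y : ℕ → ℕ) (px lx py ly T i : ℕ) (h : i ≤ T) : ev X Y px lx py ly T i ≤ T := by
  have := dist_le X Y px (min i lx) py (min (T - i) ly)
  unfold ev
  omega

theorem cap_eq_ev (X Y : ℕ → ℕ) {px lx py ly T i : ℕ} (h : i ≤ T) :
    cap X Y px py T (min i (min lx T)) (min (T - i) (min ly T)) = ev X Y px lx py ly T i := by
  have h1 : min i (min lx T) = min i lx := by omega
  have h2 : min (T - i) (min ly T) = min (T - i) ly := by omega
  rw [h1, h2, cap, ← ev]
  have := ev_le X Y px lx py ly T i h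
  omega

/-- One row of the strip. -/
def stripRow (o : ℕ) : Prog :=
  .seq dpRow (.put o (eadd (eadd (.reg 21) (.reg 15)) (.lit 1))
    (.get 2 (emin (esub (esub (.reg 14) (.reg 15)) (.lit 1)) (.reg 13))))

/-- The strip: see `strip_spec`. -/
def strip (o : ℕ) : Prog :=
  .seq (.set 13 (emin (.reg 13) (.reg 14)))
  (.seq (.set 22 (emin (.reg 11) (.reg 14)))
  (.seq (.loop 17 (eadd (.reg 13) (.lit 1)) (.put 2 (.reg 17) (emin (.reg 17)
    (eadd (.reg 14) (.lit 1)))))
  (.seq (.put o (.reg 21) (.get 2 (.reg 13)))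
  (.seq (.loop 15 (.reg 22) (stripRow o))
    (.loop 15 (esub (.reg 14) (.reg 22))
      (.put o (eadd (eadd (eadd (.reg 21) (.reg 22)) (.reg 15)) (.lit 1))
        (.get 2 (emin (esub (esub (esub (.reg 14) (.reg 22)) (.reg 15)) (.lit 1))
          (.reg 13)))))))))

theorem dpRow_wa : dpRow.wa = [2, 2] := rfl

theorem stripRow_wa (o : ℕ) : (stripRow o).wa = [2, 2, o] := rfl

theorem strip_wr (o : ℕ) : ∀ k ∈ (strip o).wr, k ∈ [13, 22, 17, 15, 16, 18, 20, 19, 39] := by
  intro k hk
  have : (strip o).wr = (strip 3).wr := rfl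
  rw [this] at hk
  revert hk
  revert k
  decide

theorem strip_wa (o : ℕ) : ∀ k ∈ (strip o).wa, k = 2 ∨ k = o := by
  intro k hk
  have : (strip o).wa = [2, o, 2, 2, o, o] := rfl
  rw [this] at hk
  simp at hk
  tauto

theorem stripRow_spec {E : Env} {s : State} {o : ℕ} (ho : 3 ≤ o) {X Y : ℕ → ℕ}
    {px py lx ly T i base : ℕ}
    (h0 : s.arr 0 = X) (h1 : s.arr 1 = Y) (h10 : s.reg 10 = px) (h12 : s.reg 12 = py)
    (h13 : s.reg 13 = min ly T) (h14 : s.reg 14 = T) (h15 : s.reg 15 = i)
    (h21 : s.reg 21 = base) (hi : i < min lx T)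
    (hT : T + 1 ≤ E.R) (hrow : ∀ j ≤ min ly T, s.arr 2 j = cap X Y px py T i j) :
    Spec E s (stripRow o) (90 + T * 122)
      (fun s' => (∀ j ≤ min ly T, s'.arr 2 j = cap X Y px py T (i + 1) j) ∧
        s'.arr o = Function.update (s.arr o) (base + (i + 1)) (ev X Y px lx py ly T (i + 1))) := by
  unfold stripRow
  refine Spec.seq 60 (min (min ly T) (2 * T + 1) * 122) 30 0 _ (by norm_num) ?_
    (dpRow_spec h0 h1 h10 h12 h13 h14 h15 hT hrow) ?_
  · have : min (min ly T) (2 * T + 1) ≤ T := by omega
    have := Nat.mul_le_mul_right 122 this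
    omega
  · intro s1 hf hrow1
    have ho2 : o ∉ dpRow.wa := by rw [dpRow_wa]; simp; omega
    have e13 : s1.reg 13 = min ly T := by rw [hf.reg 13 (by decide)]; exact h13
    have e14 : s1.reg 14 = T := by rw [hf.reg 14 (by decide)]; exact h14
    have e15 : s1.reg 15 = i := by rw [hf.reg 15 (by decide)]; exact h15
    have e21 : s1.reg 21 = base := by rw [hf.reg 21 (by decide)]; exact h21
    have hle := ev_le X Y px lx py ly T (i + 1) (by omega)
    refine Spec.put (base + (i + 1)) (ev X Y px lx py ly T (i + 1)) (by omega) rfl rfl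
      (by decide) ?_ ?_ (fun _ => by omega) ?_
    · simp [e21, e15]; ring
    · rw [← cap_eq_ev X Y (show i + 1 ≤ T by omega)]
      simp only [get_eval, emin_eval, esub_eval, reg_eval, lit_eval, e13, e14, e15]
      rw [show T - i - 1 = T - (i + 1) by omega, hrow1 _ (by omega)]
      congr 1
      omega
    · intro _
      refine ⟨?_, ?_⟩
      · intro j hj
        rw [State.setArr_arr_ne _ _ _ (by omega)]
        exact hrow1 j hj
      · rw [← hf.arr o ho2]
        simp [State.setArr]

theorem row0_spec {E : Env} {s : State} {X Y : ℕ → ℕ} {px py ly k : ℕ}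
    (h13 : s.reg 13 = ly) (h14 : s.reg 14 = k)
    (hk : k + 1 ≤ E.R) (hly : ly + 1 ≤ E.R) :
    Spec E s (.loop 17 (eadd (.reg 13) (.lit 1)) (.put 2 (.reg 17) (emin (.reg 17)
      (eadd (.reg 14) (.lit 1))))) (6 + (ly + 1) * 14)
      (fun s' => ∀ j ≤ ly, s'.arr 2 j = cap X Y px py k 0 j) := by
  refine Spec.mono (Spec.loop (ly + 1) (12 + 0) (fun t s' => ∀ j < t, s'.arr 2 j =
        cap X Y px py k 0 j) rfl (by decide) le_rfl ?_ ?_ ?_ ?_) le_rfl ?_
  · simp [h13]
  · intro _; omega
  · intro _ j hj; omega
  · intro t ht s' hb hfr hI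
    have g14 : s'.reg 14 = k := by rw [hfr.reg 14 (by decide)]; exact h14
    refine Spec.put t (min t (k + 1)) (by norm_num) rfl rfl (by decide) ?_ ?_
      (fun _ => by omega) ?_
    · simp
    · simp [g14]
    · intro _ j hj
      by_cases hjt : j = t
      · subst hjt; simp [cap_zero]
      · simp [hjt, hI j (by omega)]
  · intro s' h j hj; exact h j (by omega)

/-- Cost of one strip. -/
def stripCost (T : ℕ) : ℕ := 100 + T * (150 + T * 122)

/-- Afterwards the array `o` holds, at the addresses `base + i` for `i ≤ T`, the distances from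
the start point to all points at time distance `T`; nothing else is changed in array `o`. -/
theorem strip_spec {E : Env} {s : State} {o : ℕ} (ho : 3 ≤ o) {X Y : ℕ → ℕ}
    {px py lx ly T base : ℕ}
    (h0 : s.arr 0 = X) (h1 : s.arr 1 = Y) (h10 : s.reg 10 = px) (h11 : s.reg 11 = lx)
    (h12 : s.reg 12 = py) (h13 : s.reg 13 = ly) (h14 : s.reg 14 = T) (h21 : s.reg 21 = base)
    (hT : T + 1 ≤ E.R) :
    Spec E s (strip o) (stripCost T)
      (fun s' => (∀ i ≤ T, s'.arr o (base + i) = ev X Y px lx py ly T i) ∧
        ∀ p, (p < base ∨ base + T < p) → s'.arr o p = s.arr o p) := by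
  unfold strip stripCost
  refine Spec.set_seq (min ly T) rfl (by decide) ?_ (fun _ => by omega) ?_
  · simp [h13, h14]
  refine Spec.set_seq (min lx T) rfl (by decide) ?_ (fun _ => by omega) ?_
  · simp [h11, h14]
  have h2o : (2 : ℕ) ≠ o := by omega
  have h0o : (0 : ℕ) ≠ o := by omega
  have h1o : (1 : ℕ) ≠ o := by omega
  set s1 := (s.setReg 13 (min ly T)).setReg 22 (min lx T) with hs1
  refine Spec.seq 20 (T * 14) 60 (T * (136 + T * 122))
    (fun s' => ∀ j ≤ min ly T, s'.arr 2 j = cap X Y px py T 0 j) (by decide)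
    (by apply le_of_eq; ring) ?_ ?_
  · refine Spec.le (row0_spec (X := X) (Y := Y) (px := px) (py := py) (ly := min ly T) (k := T)
      ?_ ?_ hT (by omega)) ?_
    · simp [hs1]
    · simp [hs1, h14]
    · have := Nat.mul_le_mul_right 14 (show min ly T ≤ T by omega)
      omega
  intro s2 hf2 hrow
  have g0 : s2.arr 0 = X := by rw [hf2.arr 0 (by decide)]; simpa [hs1] using h0
  have g1 : s2.arr 1 = Y := by rw [hf2.arr 1 (by decide)]; simpa [hs1] using h1
  have g10 : s2.reg 10 = px := by rw [hf2.reg 10 (by decide)]; simpa [hs1] using h10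
  have g12 : s2.reg 12 = py := by rw [hf2.reg 12 (by decide)]; simpa [hs1] using h12
  have g13 : s2.reg 13 = min ly T := by rw [hf2.reg 13 (by decide)]; simp [hs1]
  have g14 : s2.reg 14 = T := by rw [hf2.reg 14 (by decide)]; simpa [hs1] using h14
  have g21 : s2.reg 21 = base := by rw [hf2.reg 21 (by decide)]; simpa [hs1] using h21
  have g22 : s2.reg 22 = min lx T := by rw [hf2.reg 22 (by decide)]; simp [hs1]
  have go : s2.arr o = s.arr o := by
    rw [hf2.arr o (by simp [Prog.wa]; omega)]; simp [hs1]
  have hz := ev_le X Y px lx py ly T 0 (by omega)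
  have v0 : s2.arr 2 (min ly T) = ev X Y px lx py ly T 0 := by
    rw [hrow _ le_rfl, ← cap_eq_ev X Y (show 0 ≤ T by omega)]
    congr 1
    · omega
  refine Spec.put_seq base (ev X Y px lx py ly T 0) (by omega) rfl rfl (by decide) ?_ ?_
    (fun _ => by omega) ?_
  · simp [g21]
  · simp [g13, v0]
  set s3 := s2.setArr o base (ev X Y px lx py ly T 0) with hs3
  have k0 : s3.arr 0 = X := by rw [hs3, State.setArr_arr_ne _ _ _ h0o]; exact g0
  have k1 : s3.arr 1 = Y := by rw [hs3, State.setArr_arr_ne _ _ _ h1o]; exact g1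
  have k2 : s3.arr 2 = s2.arr 2 := by rw [hs3, State.setArr_arr_ne _ _ _ h2o]
  have kreg : ∀ r, s3.reg r = s2.reg r := fun r => by rw [hs3]; simp
  have ko : s3.arr o = Function.update (s.arr o) base (ev X Y px lx py ly T 0) := by
    rw [hs3, ← go]; simp [State.setArr]
  have nr : ∀ r, r ∉ 15 :: (stripRow 3).wr → r ∉ 15 :: (stripRow o).wr := fun r h => h
  refine Spec.seq 10 (T * (100 + T * 122)) 10 (T * 36)
    (fun s' => (∀ j ≤ min ly T, s'.arr 2 j = cap X Y px py T (min lx T) j) ∧
      (∀ i ≤ min lx T, s'.arr o (base + i) = ev X Y px lx py ly T i) ∧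
      ∀ p, (p < base ∨ base + T < p) → s'.arr o p = s.arr o p) (by decide)
    (by apply le_of_eq; ring) ?_ ?_
  · refine Spec.loop (min lx T) (90 + T * 122) (fun t s' =>
      (∀ j ≤ min ly T, s'.arr 2 j = cap X Y px py T t j) ∧
      (∀ i ≤ t, s'.arr o (base + i) = ev X Y px lx py ly T i) ∧
      ∀ p, (p < base ∨ base + T < p) → s'.arr o p = s.arr o p) rfl (by decide) ?_ ?_ ?_ ?_ ?_
    · calc min lx T * (90 + T * 122 + 2) ≤ T * (90 + T * 122 + 2) :=
            Nat.mul_le_mul_right _ (by omega)
        _ ≤ T * (100 + T * 122) := Nat.mul_le_mul_left _ (by omega)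
    · simp [kreg, g22]
    · intro _; omega
    · intro _
      refine ⟨?_, ?_, ?_⟩
      · intro j hj; rw [k2]; exact hrow j hj
      · intro i hi
        have : i = 0 := by omega
        subst this
        rw [ko]; simp
      · intro p hp
        rw [ko, Function.update_of_ne (by omega)]
    · intro t ht s' hb hf hI
      obtain ⟨i1, i2, i3⟩ := hI
      have n0 : (0 : ℕ) ∉ (stripRow o).wa := by rw [stripRow_wa]; simp; omega
      have n1 : (1 : ℕ) ∉ (stripRow o).wa := by rw [stripRow_wa]; simp; omega
      refine Spec.mono (stripRow_spec (X := X) (Y := Y) (px := px) (py := py) (lx := lx)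
        (ly := ly) (T := T) (i := t) (base := base) ho ?_ ?_ ?_ ?_ ?_ ?_ ?_ ?_ ht hT ?_) le_rfl ?_
      · simp only [State.setReg_arr]; rw [hf.arr 0 n0]; exact k0
      · simp only [State.setReg_arr]; rw [hf.arr 1 n1]; exact k1
      · simp; rw [hf.reg 10 (nr 10 (by decide)), kreg]; exact g10
      · simp; rw [hf.reg 12 (nr 12 (by decide)), kreg]; exact g12
      · simp; rw [hf.reg 13 (nr 13 (by decide)), kreg]; exact g13
      · simp; rw [hf.reg 14 (nr 14 (by decide)), kreg]; exact g14
      · simp
      · simp; rw [hf.reg 21 (nr 21 (by decide)), kreg]; exact g21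
      · simpa using i1
      · rintro s'' ⟨j1, j2⟩
        simp only [State.setReg_arr] at j2
        refine ⟨j1, ?_, ?_⟩
        · intro i hi
          rw [j2]
          by_cases hit : i = t + 1
          · subst hit; simp
          · rw [Function.update_of_ne (by omega)]
            exact i2 i (by omega)
        · intro p hp
          rw [j2, Function.update_of_ne (by omega)]
          exact i3 p hp
  · rintro s4 hf4 ⟨hrow4, hout4, hkeep4⟩
    have m13 : s4.reg 13 = min ly T := by rw [hf4.reg 13 (nr 13 (by decide)), kreg]; exact g13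
    have m14 : s4.reg 14 = T := by rw [hf4.reg 14 (nr 14 (by decide)), kreg]; exact g14
    have m21 : s4.reg 21 = base := by rw [hf4.reg 21 (nr 21 (by decide)), kreg]; exact g21
    have m22 : s4.reg 22 = min lx T := by rw [hf4.reg 22 (nr 22 (by decide)), kreg]; exact g22
    refine Spec.mono (Spec.loop (T - min lx T) (30 + 0) (fun t s' =>
      (∀ j ≤ min ly T, s'.arr 2 j = cap X Y px py T (min lx T) j) ∧
      (∀ i ≤ min lx T + t, s'.arr o (base + i) = ev X Y px lx py ly T i) ∧
      ∀ p, (p < base ∨ base + T < p) → s'.arr o p = s.arr o p) rfl (by decide) ?_ ?_ ?_ ?_ ?_)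
      le_rfl ?_
    · calc (T - min lx T) * (30 + 0 + 2) ≤ T * 32 := Nat.mul_le_mul_right _ (by omega)
        _ ≤ T * 36 := Nat.mul_le_mul_left _ (by omega)
    · simp [m14, m22]
    · intro _; omega
    · intro _; exact ⟨hrow4, by simpa using hout4, hkeep4⟩
    · intro t ht s' hb hf hI
      obtain ⟨i1, i2, i3⟩ := hI
      have e13 : s'.reg 13 = min ly T := by rw [hf.reg 13 (by simp [Prog.wr])]; exact m13
      have e14 : s'.reg 14 = T := by rw [hf.reg 14 (by simp [Prog.wr])]; exact m14
      have e21 : s'.reg 21 = base := by rw [hf.reg 21 (by simp [Prog.wr])]; exact m21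
      have e22 : s'.reg 22 = min lx T := by rw [hf.reg 22 (by simp [Prog.wr])]; exact m22
      have hle := ev_le X Y px lx py ly T (min lx T + t + 1) (by omega)
      refine Spec.put (base + (min lx T + t + 1)) (ev X Y px lx py ly T (min lx T + t + 1))
        (by omega) rfl rfl (by decide) ?_ ?_ (fun _ => by omega) ?_
      · simp [e21, e22]; ring
      · rw [← cap_eq_ev X Y (show min lx T + t + 1 ≤ T by omega)]
        simp only [get_eval, emin_eval, esub_eval, reg_eval, lit_eval, State.setReg_reg,
          State.setReg_arr]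
        simp only [e13, e14, e22]
        norm_num
        rw [show T - min lx T - t - 1 = T - (min lx T + t + 1) by omega, i1 _ (by omega)]
        congr 1
        omega
      · intro _
        refine ⟨?_, ?_, ?_⟩
        · intro j hj
          rw [State.setArr_arr_ne _ _ _ h2o]
          simpa using i1 j hj
        · intro i hi
          simp only [State.setArr_arr, State.setReg_arr, true_and]
          by_cases hit : i = min lx T + t + 1
          · subst hit; simp
          · rw [if_neg (by omega)]
            exact i2 i (by omega)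
        · intro p hp
          simp only [State.setArr_arr, State.setReg_arr, true_and]
          rw [if_neg (by omega)]
          exact i3 p hp
    · rintro s' ⟨-, i2, i3⟩
      exact ⟨fun i hi => i2 i (by omega), i3⟩

end Vale.Agent.P315.H47
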